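import Vale.Agent.P032.S5.H80.Clean
import Vale.Agent.P032.S5.H394.Arc

/-!
# P032: the germ of a unit circle at a two-pair centre

`v` a point with `DPt T v a b c d`, `z` any point at distance 1 from `v`.  On each of the two half
branches of `S(z)` at `v` exactly one colour of each pair is allowed, opposite colours on the two
half branches (`Irr.germ_pair`, `Irr.germ_branch`).  No tameness is assumed.
-/

open Set Filter Topology Metric

noncomputable section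

namespace Vale.Agent.P032.Six

variable {k : ℕ} {U : Fin k → Set ℂ} {T : ℂ → Set (Fin k)}

/-- the half branch `τ = ±1` of `S(z)` at `v` -/
def hb (z v : ℂ) (τ t : ℝ) : ℂ := z + (v - z) * cis (τ * t)

theorem tendsto_hb (z v : ℂ) (τ : ℝ) : Tendsto (hb z v τ) (𝓝[>] 0) (𝓝 v) :=
  tendsto_arc z v τ

theorem dist_hb {z v : ℂ} (hv : dist v z = 1) (τ t : ℝ) : dist (hb z v τ t) z = 1 :=
  dist_arc hv _

/-- the sign of the half branch `τ` of `S(z)` at `v` with respect to `g ∈ S(v)` -/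
def sg (z v g : ℂ) : ℝ := cr (v - z) (v - g)

theorem hb_in {z v g : ℂ} (hg : dist g v = 1) {τ : ℝ} (hs : τ * sg z v g < 0) :
    ∀ᶠ t : ℝ in 𝓝[>] 0, dist (hb z v τ t) g < 1 :=
  arc_in (by rw [dist_comm]; exact hg) hs

theorem hb_out {z v g : ℂ} (hg : dist g v = 1) {τ : ℝ} (hs : 0 < τ * sg z v g) :
    ∀ᶠ t : ℝ in 𝓝[>] 0, 1 < dist (hb z v τ t) g :=
  arc_out (by rw [dist_comm]; exact hg) hs

theorem sg_ne {z v g : ℂ} (hz : dist v z = 1) (hg : dist g v = 1) (h1 : g ≠ z)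
    (h2 : g + z ≠ 2 * v) : sg z v g ≠ 0 := by
  have h3 := cr_ne_of (z := v) (g := g) (V := z) hg (by rw [dist_comm]; exact hz) h1 h2
  intro h4
  apply h3
  unfold sg cr at h4
  unfold cr
  simp only [Complex.sub_re, Complex.sub_im] at h4 ⊢
  linarith

/-- **half branch rule for one exact arc with known sides**: `g` interior to an exact `ab`-arc of
`S(v)`, `a` inside. -/
theorem Irr.germ_sd (h : Irr U T) {z v g : ℂ} {a b : Fin k} (hg : Arc T v g {a, b})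
    (hs : Sd U v g a b) :
    (∀ τ : ℝ, τ * sg z v g < 0 → ∀ᶠ t : ℝ in 𝓝[>] 0, b ∉ Pal U (hb z v τ t)) ∧
      (∀ τ : ℝ, 0 < τ * sg z v g → ∀ᶠ t : ℝ in 𝓝[>] 0, a ∉ Pal U (hb z v τ t)) := by
  have hc := h.sd_center hg hs
  constructor
  · intro τ hτ
    filter_upwards [hb_in hg.1 hτ, (tendsto_hb z v τ).eventually hc] with t h1 h2
    exact h2.2 h1
  · intro τ hτ
    filter_upwards [hb_out hg.1 hτ, (tendsto_hb z v τ).eventually hc] with t h1 h2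
    exact h2.1 h1

/-- one colour of the pair `a, b` is absent on the first half branch, the other one on the second -/
def Hb (U : Fin k → Set ℂ) (z v : ℂ) (a b : Fin k) : Prop :=
  (∀ᶠ t : ℝ in 𝓝[>] 0, b ∉ Pal U (hb z v 1 t)) ∧ ∀ᶠ t : ℝ in 𝓝[>] 0, a ∉ Pal U (hb z v (-1) t)

/-- **germ, one pair**: `Hb U z v a b`: the first half branch allows `a`, the second allows `b` -/
theorem Irr.germ_pair (h : Irr U T) {z v : ℂ} {a b c d : Fin k} (hv : DPt T v a b c d)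
    (hz : dist v z = 1) : Hb U z v a b ∨ Hb U z v b a := by
  obtain ⟨p, hp⟩ := hv.arc1
  obtain ⟨g, hg, hgz, hgz2⟩ := hp.exists_off_line (y := z)
  have hne := sg_ne hz hg.1 hgz hgz2
  have key : ∀ a b : Fin k, Arc T v g {a, b} → Sd U v g a b → Hb U z v a b ∨ Hb U z v b a := by
    intro a b hg hs
    obtain ⟨h1, h2⟩ := h.germ_sd (z := z) hg hs
    rcases lt_or_gt_of_ne hne with h3 | h3
    · exact Or.inl ⟨h1 1 (by linarith), h2 (-1) (by linarith)⟩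
    · exact Or.inr ⟨h2 1 (by linarith), h1 (-1) (by linarith)⟩
  rcases h.sides hv hg.1 with hs | hs
  · exact key a b hg hs
  · exact (key b a (by rwa [pair_comm]) hs).symm

/-- the palette on a half branch is contained in two colours -/
theorem Irr.hb_sub (h : Irr U T) {z v : ℂ} {a b c d : Fin k} (hv : T v = {a, b, c, d}) {τ : ℝ}
    (h1 : ∀ᶠ t : ℝ in 𝓝[>] 0, b ∉ Pal U (hb z v τ t))
    (h2 : ∀ᶠ t : ℝ in 𝓝[>] 0, d ∉ Pal U (hb z v τ t)) :
    ∀ᶠ t : ℝ in 𝓝[>] 0, T (hb z v τ t) ⊆ {a, c} := by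
  filter_upwards [h1, h2, (tendsto_hb z v τ).eventually (h.nhd v)] with t h3 h4 h5
  intro i hi
  have h6 := h5 hi
  rw [hv] at h6
  rcases h6 with rfl | rfl | rfl | h7
  · simp
  · exact absurd (h.sub _ hi) h3
  · simp
  · rw [mem_singleton_iff] at h7
    subst h7
    exact absurd (h.sub _ hi) h4

/-- the germ structure: `T ⊆ {a, c}` on the first half branch, `T ⊆ {b, d}` on the second -/
def Gm (T : ℂ → Set (Fin k)) (z v : ℂ) (a c b d : Fin k) : Prop :=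
  (∀ᶠ t : ℝ in 𝓝[>] 0, T (hb z v 1 t) ⊆ {a, c}) ∧
    ∀ᶠ t : ℝ in 𝓝[>] 0, T (hb z v (-1) t) ⊆ {b, d}

/-- **germ of `S(z)` at a two-pair centre** -/
theorem Irr.germ_branch (h : Irr U T) {z v : ℂ} {a b c d : Fin k} (hv : DPt T v a b c d)
    (hz : dist v z = 1) :
    Gm T z v a c b d ∨ Gm T z v a d b c ∨ Gm T z v b c a d ∨ Gm T z v b d a c := by
  have e1 : T v = {b, a, c, d} := hv.swap12.pal
  have e2 : T v = {a, b, d, c} := hv.swap34.pal
  have e3 : T v = {b, a, d, c} := hv.swap12.swap34.pal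
  rcases h.germ_pair hv hz with h1 | h1 <;> rcases h.germ_pair hv.swap hz with h2 | h2
  · exact Or.inl ⟨h.hb_sub hv.pal h1.1 h2.1, h.hb_sub e3 h1.2 h2.2⟩
  · exact Or.inr (Or.inl ⟨h.hb_sub e2 h1.1 h2.1, h.hb_sub e1 h1.2 h2.2⟩)
  · exact Or.inr (Or.inr (Or.inl ⟨h.hb_sub e1 h1.1 h2.1, h.hb_sub e2 h1.2 h2.2⟩))
  · exact Or.inr (Or.inr (Or.inr ⟨h.hb_sub e3 h1.1 h2.1, h.hb_sub hv.pal h1.2 h2.2⟩))

/-- a point of `S(z)` never has a single colour of `Pal z` -/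
theorem Irr.not_single (h : Irr U T) {z w : ℂ} {i : Fin k} (hi : i ∈ Pal U z)
    (hw : dist w z = 1) : ¬ T w ⊆ {i} := fun h1 => h.mx.notMem' (h.mem_of_single h1) hw hi

/-- both colours in `Pal z`: the half branch is an exact arc -/
theorem Irr.hb_exact (h : Irr U T) {z v : ℂ} {x y : Fin k} {τ : ℝ} (hz : dist v z = 1)
    (h1 : ∀ᶠ t : ℝ in 𝓝[>] 0, T (hb z v τ t) ⊆ {x, y}) (hx : x ∈ Pal U z) (hy : y ∈ Pal U z) :
    ∀ᶠ t : ℝ in 𝓝[>] 0, T (hb z v τ t) = {x, y} := by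
  filter_upwards [h1] with t h2
  have h3 := dist_hb hz τ t
  refine Subset.antisymm h2 ?_
  have key : ∀ x y : Fin k, T (hb z v τ t) ⊆ {x, y} → x ∈ Pal U z → y ∈ T (hb z v τ t) := by
    intro x y h2 hx
    by_contra hcon
    refine h.not_single hx h3 fun i hi => ?_
    rcases h2 hi with rfl | h4
    · rfl
    · rw [mem_singleton_iff] at h4
      subst h4
      exact absurd hi hcon
  rintro i (rfl | hi)
  · exact key y i (by rwa [pair_comm]) hy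
  · rw [mem_singleton_iff] at hi
    subst hi
    exact key x i h2 hx

/-- one colour in `Pal z`: the other one is everywhere on the half branch -/
theorem Irr.hb_mem (h : Irr U T) {z v : ℂ} {x y : Fin k} {τ : ℝ} (hz : dist v z = 1)
    (h1 : ∀ᶠ t : ℝ in 𝓝[>] 0, T (hb z v τ t) ⊆ {x, y}) (hx : x ∈ Pal U z) :
    ∀ᶠ t : ℝ in 𝓝[>] 0, y ∈ T (hb z v τ t) := by
  filter_upwards [h1] with t h2
  by_contra hcon
  refine h.not_single hx (dist_hb hz τ t) fun i hi => ?_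
  rcases h2 hi with rfl | h4
  · rfl
  · rw [mem_singleton_iff] at h4
    subst h4
    exact absurd hi hcon

/-- an exact half branch gives a point of the circle with this palette -/
theorem hb_exists {z v : ℂ} {P : Set (Fin k)} {τ : ℝ} (hz : dist v z = 1)
    (h1 : ∀ᶠ t : ℝ in 𝓝[>] 0, T (hb z v τ t) = P) : ∃ q, dist q z = 1 ∧ T q = P := by
  obtain ⟨t, ht⟩ := h1.exists
  exact ⟨_, dist_hb hz τ t, ht⟩

/-- the same lemma as an existence statement, in the polar form -/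
theorem Irr.germ_ex (h : Irr U T) {z v : ℂ} {a b c d : Fin k} (hv : DPt T v a b c d)
    (hz : dist v z = 1) :
    ∃ x x' y y', ((x = a ∧ x' = b) ∨ (x = b ∧ x' = a)) ∧ ((y = c ∧ y' = d) ∨ (y = d ∧ y' = c)) ∧
      (∀ᶠ t : ℝ in 𝓝[>] 0, T (z + (v - z) * cis t) ⊆ {x, y}) ∧
      ∀ᶠ t : ℝ in 𝓝[>] 0, T (z + (v - z) * cis (-t)) ⊆ {x', y'} := by
  have e1 : ∀ t : ℝ, hb z v 1 t = z + (v - z) * cis t := fun t => by rw [hb, one_mul]
  have e2 : ∀ t : ℝ, hb z v (-1) t = z + (v - z) * cis (-t) := fun t => by rw [hb, neg_one_mul]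
  have h0 := h.germ_branch hv hz
  simp only [Gm, e1, e2] at h0
  rcases h0 with h1 | h1 | h1 | h1
  · exact ⟨a, b, c, d, Or.inl ⟨rfl, rfl⟩, Or.inl ⟨rfl, rfl⟩, h1.1, h1.2⟩
  · exact ⟨a, b, d, c, Or.inl ⟨rfl, rfl⟩, Or.inr ⟨rfl, rfl⟩, h1.1, h1.2⟩
  · exact ⟨b, a, c, d, Or.inr ⟨rfl, rfl⟩, Or.inl ⟨rfl, rfl⟩, h1.1, h1.2⟩
  · exact ⟨b, a, d, c, Or.inr ⟨rfl, rfl⟩, Or.inr ⟨rfl, rfl⟩, h1.1, h1.2⟩

/-- a two-coloured point of `S(z)` with two colours of `T z` is interior to an exact arc -/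
theorem Irr.arc_of_eq (h : Irr U T) {z q : ℂ} {x y : Fin k} (hxy : x ≠ y) (hx : x ∈ T z)
    (hy : y ∈ T z) (hq : dist q z = 1) (hT : T q = {x, y}) : Arc T z q {x, y} := by
  refine ⟨hq, h.pair_open (Set.ncard_pair hxy) ?_ (le_of_eq hT)⟩
  rintro i (rfl | hi)
  · exact hx
  · rw [mem_singleton_iff] at hi
    subst hi
    exact hy

/-- the mixed pairs do not occur exactly on `S(z)` -/
def Only (T : ℂ → Set (Fin k)) (z : ℂ) (a b c d : Fin k) : Prop :=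
  ∀ q, dist q z = 1 → T q ≠ {a, c} ∧ T q ≠ {a, d} ∧ T q ≠ {b, c} ∧ T q ≠ {b, d}

theorem Only.swap12 {z : ℂ} {a b c d : Fin k} (h : Only T z a b c d) : Only T z b a c d :=
  fun q hq => ⟨(h q hq).2.2.1, (h q hq).2.2.2, (h q hq).1, (h q hq).2.1⟩

theorem Only.swap34 {z : ℂ} {a b c d : Fin k} (h : Only T z a b c d) : Only T z a b d c :=
  fun q hq => ⟨(h q hq).2.1, (h q hq).1, (h q hq).2.2.2, (h q hq).2.2.1⟩

theorem Only.swap {z : ℂ} {a b c d : Fin k} (h : Only T z a b c d) : Only T z c d a b :=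
  fun q hq => ⟨by rw [pair_comm]; exact (h q hq).1, by rw [pair_comm]; exact (h q hq).2.2.1,
    by rw [pair_comm]; exact (h q hq).2.1, by rw [pair_comm]; exact (h q hq).2.2.2⟩

/-- no half branch in a mixed pair -/
theorem Irr.no_mixed (h : Irr U T) {z v : ℂ} {a b c d : Fin k} (hO : Only T z a b c d)
    (ha : a ∈ T z) (hc : c ∈ T z) (hz : dist v z = 1) {τ : ℝ}
    (h1 : ∀ᶠ t : ℝ in 𝓝[>] 0, T (hb z v τ t) ⊆ {a, c}) : False := by
  obtain ⟨q, hq, hT⟩ := hb_exists hz (h.hb_exact hz h1 (h.sub _ ha) (h.sub _ hc))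
  exact (hO q hq).1 hT

section list

variable {z v : ℂ} {a b c d e f : Fin k}

/-- **crossed EQ**: a direct junction -/
theorem Irr.germ_eq (h : Irr U T) (hO : Only T z a b c d) (ha : a ∈ T z) (hb' : b ∈ T z)
    (hc : c ∈ T z) (hd : d ∈ T z) (hv : DPt T v a c b d) (hz : dist v z = 1) :
    ∃ τ : ℝ, (τ = 1 ∨ τ = -1) ∧ (∀ᶠ t : ℝ in 𝓝[>] 0, T (hb z v τ t) = {a, b}) ∧
      ∀ᶠ t : ℝ in 𝓝[>] 0, T (hb z v (-τ) t) = {c, d} := by
  rcases h.germ_branch hv hz with h1 | h1 | h1 | h1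
  · exact ⟨1, Or.inl rfl, h.hb_exact hz h1.1 (h.sub _ ha) (h.sub _ hb'),
      h.hb_exact hz h1.2 (h.sub _ hc) (h.sub _ hd)⟩
  · exact (h.no_mixed hO.swap34 ha hd hz h1.1).elim
  · exact (h.no_mixed hO.swap34 ha hd hz h1.2).elim
  · refine ⟨-1, Or.inr rfl, h.hb_exact hz h1.2 (h.sub _ ha) (h.sub _ hb'), ?_⟩
    rw [neg_neg]
    exact h.hb_exact hz h1.1 (h.sub _ hc) (h.sub _ hd)

/-- **EQ with the same pairs** does not occur -/
theorem Irr.germ_eq_same (h : Irr U T) (hO : Only T z a b c d) (ha : a ∈ T z) (hb' : b ∈ T z)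
    (hc : c ∈ T z) (hd : d ∈ T z) (hv : DPt T v a b c d) (hz : dist v z = 1) : False := by
  rcases h.germ_branch hv hz with h1 | h1 | h1 | h1
  · exact h.no_mixed hO ha hc hz h1.1
  · exact h.no_mixed hO.swap34 ha hd hz h1.1
  · exact h.no_mixed hO.swap12 hb' hc hz h1.1
  · exact h.no_mixed hO.swap12.swap34 hb' hd hz h1.1

/-- **beta**: `T v = {a, b, c, e}` with the pairs `ac | be`: exact `ab` on one side, `e` everywhere
on the other side -/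
theorem Irr.germ_beta (h : Irr U T) (hO : Only T z a b c d) (ha : a ∈ T z) (hb' : b ∈ T z)
    (hc : c ∈ T z) (hv : DPt T v a c b e) (hz : dist v z = 1) :
    ∃ τ : ℝ, (τ = 1 ∨ τ = -1) ∧ (∀ᶠ t : ℝ in 𝓝[>] 0, T (hb z v τ t) = {a, b}) ∧
      ∀ᶠ t : ℝ in 𝓝[>] 0, T (hb z v (-τ) t) ⊆ {c, e} ∧ e ∈ T (hb z v (-τ) t) := by
  rcases h.germ_branch hv hz with h1 | h1 | h1 | h1
  · refine ⟨1, Or.inl rfl, h.hb_exact hz h1.1 (h.sub _ ha) (h.sub _ hb'), ?_⟩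
    exact h1.2.and (h.hb_mem hz h1.2 (h.sub _ hc))
  · refine (h.no_mixed hO.swap12 hb' hc hz (τ := -1) ?_).elim
    simpa only [pair_comm c b] using h1.2
  · refine (h.no_mixed hO.swap12 hb' hc hz (τ := 1) ?_).elim
    simpa only [pair_comm c b] using h1.1
  · refine ⟨-1, Or.inr rfl, h.hb_exact hz h1.2 (h.sub _ ha) (h.sub _ hb'), ?_⟩
    rw [neg_neg]
    exact h1.1.and (h.hb_mem hz h1.1 (h.sub _ hc))

/-- **beta with the pairs `ab | ce`** does not occur -/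
theorem Irr.germ_beta_same (h : Irr U T) (hO : Only T z a b c d) (ha : a ∈ T z) (hb' : b ∈ T z)
    (hc : c ∈ T z) (hv : DPt T v a b c e) (hz : dist v z = 1) : False := by
  rcases h.germ_branch hv hz with h1 | h1 | h1 | h1
  · exact h.no_mixed hO ha hc hz h1.1
  · exact h.no_mixed hO.swap12 hb' hc hz h1.2
  · exact h.no_mixed hO.swap12 hb' hc hz h1.1
  · exact h.no_mixed hO ha hc hz h1.2

/-- **two common colours `x, x'`, pairs `x x' | e f`**: `S(z)` flips from `e` to `f` at `v` -/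
theorem Irr.germ_flip (h : Irr U T) {x x' : Fin k} (hx : x ∈ T z) (hx' : x' ∈ T z)
    (hv : DPt T v x x' e f) (hz : dist v z = 1) :
    ∃ τ : ℝ, (τ = 1 ∨ τ = -1) ∧ (∀ᶠ t : ℝ in 𝓝[>] 0, e ∈ T (hb z v τ t) ∧
      f ∉ T (hb z v τ t)) ∧ ∀ᶠ t : ℝ in 𝓝[>] 0, f ∈ T (hb z v (-τ) t) ∧ e ∉ T (hb z v (-τ) t) := by
  have key : ∀ y s l : Fin k, ∀ τ : ℝ, y ∈ T z → s ≠ l → y ≠ l →
      (∀ᶠ t : ℝ in 𝓝[>] 0, T (hb z v τ t) ⊆ {y, s}) →
      ∀ᶠ t : ℝ in 𝓝[>] 0, s ∈ T (hb z v τ t) ∧ l ∉ T (hb z v τ t) := by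
    intro y s l τ hy hsl hyl h1
    filter_upwards [h1, h.hb_mem hz h1 (h.sub _ hy)] with t h2 h3
    refine ⟨h3, fun h4 => ?_⟩
    rcases h2 h4 with h5 | h5
    · exact hyl h5.symm
    · rw [mem_singleton_iff] at h5; exact hsl h5.symm
  rcases h.germ_branch hv hz with h1 | h1 | h1 | h1
  · exact ⟨1, Or.inl rfl, key x e f _ hx hv.cd hv.ad h1.1, key x' f e _ hx' hv.cd.symm hv.bc h1.2⟩
  · refine ⟨-1, Or.inr rfl, key x' e f _ hx' hv.cd hv.bd h1.2, ?_⟩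
    rw [neg_neg]
    exact key x f e _ hx hv.cd.symm hv.ac h1.1
  · exact ⟨1, Or.inl rfl, key x' e f _ hx' hv.cd hv.bd h1.1, key x f e _ hx hv.cd.symm hv.ac h1.2⟩
  · refine ⟨-1, Or.inr rfl, key x e f _ hx hv.cd hv.ad h1.2, ?_⟩
    rw [neg_neg]
    exact key x' f e _ hx' hv.cd.symm hv.bc h1.1

/-- **two common colours `x, x'`, pairs `x f | x' e`**: an exact `x x'`-arc on one side and `T` in
`{e, f}` on the other side, or a flip from `e` to `f` -/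
theorem Irr.germ_cross (h : Irr U T) {x x' : Fin k} (hx : x ∈ T z) (hx' : x' ∈ T z)
    (hv : DPt T v x f x' e) (hz : dist v z = 1) :
    ∃ τ : ℝ, (τ = 1 ∨ τ = -1) ∧
      (((∀ᶠ t : ℝ in 𝓝[>] 0, T (hb z v τ t) = {x, x'}) ∧
        ∀ᶠ t : ℝ in 𝓝[>] 0, T (hb z v (-τ) t) ⊆ {e, f}) ∨
      ((∀ᶠ t : ℝ in 𝓝[>] 0, T (hb z v τ t) ⊆ {x, e} ∧ e ∈ T (hb z v τ t)) ∧
        ∀ᶠ t : ℝ in 𝓝[>] 0, T (hb z v (-τ) t) ⊆ {x', f} ∧ f ∈ T (hb z v (-τ) t))) := by
  rcases h.germ_branch hv hz with h1 | h1 | h1 | h1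
  · refine ⟨1, Or.inl rfl, Or.inl ⟨h.hb_exact hz h1.1 (h.sub _ hx) (h.sub _ hx'), ?_⟩⟩
    filter_upwards [h1.2] with t h2
    rwa [pair_comm]
  · refine ⟨1, Or.inl rfl, Or.inr ⟨h1.1.and (h.hb_mem hz h1.1 (h.sub _ hx)), ?_⟩⟩
    have h2 : ∀ᶠ t : ℝ in 𝓝[>] 0, T (hb z v (-1) t) ⊆ {x', f} := by
      filter_upwards [h1.2] with t h2
      rwa [pair_comm]
    exact h2.and (h.hb_mem hz h2 (h.sub _ hx'))
  · refine ⟨-1, Or.inr rfl, Or.inr ⟨h1.2.and (h.hb_mem hz h1.2 (h.sub _ hx)), ?_⟩⟩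
    rw [neg_neg]
    have h2 : ∀ᶠ t : ℝ in 𝓝[>] 0, T (hb z v 1 t) ⊆ {x', f} := by
      filter_upwards [h1.1] with t h2
      rwa [pair_comm]
    exact h2.and (h.hb_mem hz h2 (h.sub _ hx'))
  · refine ⟨-1, Or.inr rfl, Or.inl ⟨h.hb_exact hz h1.2 (h.sub _ hx) (h.sub _ hx'), ?_⟩⟩
    rw [neg_neg]
    filter_upwards [h1.1] with t h2
    rwa [pair_comm]

end list

end Vale.Agent.P032.Six
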